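import Vale.Agent.Lib.P131.Poly

open Vale.Agent.Lib.P131

namespace Vale.Agent.Results.P131.BicommutantCriterion

/-- Let `T` be a nonscalar bounded operator on a complex Hilbert space.  `T` has a nontrivial closed
hyperinvariant subspace in each of the following cases:
(1) some nonzero operator `S` of the bicommutant of `T` is not injective or has a range that is not dense;
(2) the bicommutant of `T` has zero divisors;
(3) `p(T)` is not injective or has a range that is not dense, for some nonzero polynomial `p`
(this contains the case `p(T) = 0` of an algebraic operator);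
(4) `T` has an eigenvector;  (5) the adjoint of `T` has an eigenvector;
(6) some nonzero vector is not cyclic for the commutant of `T`. -/
theorem result {H : Type*} [NormedAddCommGroup H] [InnerProductSpace ℂ H] [CompleteSpace H]
    (T : H →L[ℂ] H) (hns : Nonscalar T) :
    ((∃ S : H →L[ℂ] H, InBicommutant T S ∧ S ≠ 0 ∧ (¬ Function.Injective S ∨ ¬ DenseRange S)) →
      HasHyperinvariant T) ∧
    ((∃ S1 S2 : H →L[ℂ] H, InBicommutant T S1 ∧ InBicommutant T S2 ∧ S1 ≠ 0 ∧ S2 ≠ 0 ∧
      S1 * S2 = 0) → HasHyperinvariant T) ∧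
    ((∃ p : Polynomial ℂ, p ≠ 0 ∧ (¬ Function.Injective (Polynomial.aeval T p) ∨
      ¬ DenseRange (Polynomial.aeval T p))) → HasHyperinvariant T) ∧
    ((∃ (c : ℂ) (x : H), x ≠ 0 ∧ T x = c • x) → HasHyperinvariant T) ∧
    ((∃ (c : ℂ) (x : H), x ≠ 0 ∧ ContinuousLinearMap.adjoint T x = c • x) →
      HasHyperinvariant T) ∧
    ((∃ x : H, x ≠ 0 ∧ ¬ Dense {y : H | ∃ A : H →L[ℂ] H, A * T = T * A ∧ y = A x}) →
      HasHyperinvariant T) := by
  have hlin : ∀ c : ℂ, ¬ HasHyperinvariant T →
      Function.Injective (T - c • (1 : H →L[ℂ] H)) ∧ DenseRange (T - c • (1 : H →L[ℂ] H)) := by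
    intro c hT
    rcases bicommutant_dichotomy T hT _ (inBicommutant_sub_smul T c) with h0 | h
    · exact absurd (sub_eq_zero.mp h0) (hns c)
    · exact h
  refine ⟨?_, ?_, ?_, ?_, ?_, ?_⟩
  · rintro ⟨S, hS, hS0, hbad⟩
    by_contra hT
    rcases bicommutant_dichotomy T hT S hS with h0 | ⟨hi, hd⟩
    · exact hS0 h0
    · rcases hbad with h | h
      · exact h hi
      · exact h hd
  · rintro ⟨S1, S2, h1, -, h10, h20, hmul⟩
    by_contra hT
    rcases no_zero_divisors T hT S1 S2 h1 hmul with h | h
    · exact h10 h
    · exact h20 h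
  · rintro ⟨p, hp, hbad⟩
    by_contra hT
    rcases bicommutant_dichotomy T hT _ (inBicommutant_aeval T p) with h0 | ⟨hi, hd⟩
    · exact aeval_ne_zero T hT hns p hp h0
    · rcases hbad with h | h
      · exact h hi
      · exact h hd
  · rintro ⟨c, x, hx, hTx⟩
    by_contra hT
    apply hx
    apply (hlin c hT).1
    simp [hTx]
  · rintro ⟨c, x, hx, hTx⟩
    by_contra hT
    apply hx
    have hd := (hlin (starRingEnd ℂ c) hT).2
    have hz : ∀ z : H, inner ℂ z x = 0 := by
      intro z
      refine hd.induction_on (p := fun z => inner ℂ z x = 0) z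
        (isClosed_eq (by fun_prop) continuous_const) ?_
      intro y
      have h1 : inner ℂ (T y) x = inner ℂ y (ContinuousLinearMap.adjoint T x) :=
        (ContinuousLinearMap.adjoint_inner_right T y x).symm
      simp only [ContinuousLinearMap.sub_apply, ContinuousLinearMap.smul_apply,
        ContinuousLinearMap.one_apply, inner_sub_left, h1, hTx, inner_smul_left, inner_smul_right]
      simp
    exact inner_self_eq_zero.mp (hz x)
  · rintro ⟨x, hx, hnd⟩
    by_contra hT
    exact hnd (orbit_dense T hT x hx)

end Vale.Agent.Results.P131.BicommutantCriterion
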